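import Vale.Agent.H57.MatroidAug

/-!
# Matroid intersection with a finite direct sum of finite-rank and finite-corank matroids

Support file for problem P068: an arbitrary matroid `M` and a direct sum of finitely many
matroids, each of finite rank or of finite corank, satisfy the matroid intersection property.
-/

namespace Vale.Agent.H57

open Set

variable {α ι : Type*}

theorem intersection_disjointSigma [Finite ι] (M : Matroid α) (N : ι → Matroid α)
    (hdj : Pairwise (Function.onFun Disjoint fun i => (N i).E))
    (hE : M.E = ⋃ i, (N i).E)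
    (hfin : ∀ i, (N i).RankFinite ∨ (N i).dual.RankFinite) :
    ∃ J JM JN : Set α, M.Indep J ∧ (Matroid.disjointSigma N hdj).Indep J ∧ JM ∪ JN = J ∧
      Disjoint JM JN ∧ M.closure JM ∪ (Matroid.disjointSigma N hdj).closure JN = M.E := by
  classical
  have : Fintype ι := Fintype.ofFinite ι
  -- a base of each summand, finite or cofinite
  have hB : ∀ i, ∃ B, (N i).IsBase B ∧ ((N i).RankFinite → B.Finite) ∧
      (¬ (N i).RankFinite → ((N i).E \ B).Finite) := by
    intro i
    obtain ⟨B, hB⟩ := (N i).exists_isBase
    refine ⟨B, hB, fun h => ?_, fun h => ?_⟩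
    · have := h
      exact hB.finite
    · rcases hfin i with h' | h'
      · exact absurd h' h
      · have := h'
        exact hB.compl_isBase_dual.finite
  choose B hBbase hBfin hBcofin using hB
  have huniq : ∀ e i j, e ∈ (N i).E → e ∈ (N j).E → i = j := by
    intro e i j hi hj
    by_contra hne
    exact Set.disjoint_left.mp (hdj hne) hi hj
  set BT : Set α := ⋃ i ∈ {i | ¬ (N i).RankFinite}, B i with hBT
  have hBTE : BT ⊆ M.E := by
    intro e he
    rw [hBT] at he
    simp only [mem_iUnion, mem_ofPred_eq, exists_prop] at he
    obtain ⟨i, -, hei⟩ := he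
    rw [hE]
    exact mem_iUnion.mpr ⟨i, (hBbase i).subset_ground hei⟩
  obtain ⟨J₀, hJ₀⟩ := M.exists_isBasis BT hBTE
  have hJ₀N : (Matroid.disjointSigma N hdj).Indep J₀ := by
    rw [Matroid.disjointSigma_indep_iff]
    refine ⟨fun i => ?_, fun e he => ?_⟩
    · apply (hBbase i).indep.subset
      rintro e ⟨heJ, heE⟩
      have he := hJ₀.subset heJ
      rw [hBT] at he
      simp only [mem_iUnion, mem_ofPred_eq, exists_prop] at he
      obtain ⟨j, -, hej⟩ := he
      have hji := huniq e j i ((hBbase j).subset_ground hej) heE
      rw [← hji]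
      exact hej
    · rw [← hE]
      exact hJ₀.indep.subset_ground he
  -- the finite sets bounding common independent sets of `M ／ J₀` and the sum
  set F : ι → Set α := fun i => if (N i).RankFinite then B i else (N i).E \ B i with hF
  have hFfin : ∀ i, (F i).Finite := by
    intro i
    by_cases h : (N i).RankFinite
    · simp only [hF, if_pos h]
      exact hBfin i h
    · simp only [hF, if_neg h]
      exact hBcofin i h
  apply intersection_of_contract_bounded M (Matroid.disjointSigma N hdj)
    (by rw [Matroid.disjointSigma_ground_eq]; exact hE) J₀ (∑ i, (F i).ncard) hJ₀.indep hJ₀N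
  intro I hIM hIN
  rw [hJ₀.indep.contract_indep_iff] at hIM
  rw [Matroid.disjointSigma_indep_iff] at hIN
  have hcover : I ⊆ ⋃ i, I ∩ (N i).E := by
    intro e he
    obtain ⟨i, hi⟩ := mem_iUnion.mp (hIN.2 he)
    exact mem_iUnion.mpr ⟨i, he, hi⟩
  calc I.encard ≤ (⋃ i, I ∩ (N i).E).encard := encard_le_encard hcover
    _ ≤ ∑ i, (I ∩ (N i).E).encard := encard_iUnion_le_of_fintype _
    _ ≤ ∑ i, (F i).encard := by
      apply Finset.sum_le_sum
      intro i _
      by_cases h : (N i).RankFinite
      · simp only [hF, if_pos h]
        rw [(hBbase i).encard_eq_eRank]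
        exact (hIN.1 i).encard_le_eRank
      · simp only [hF, if_neg h]
        apply encard_le_encard
        rintro e ⟨heI, heE⟩
        refine ⟨heE, fun heB => ?_⟩
        have heBT : e ∈ BT := by
          rw [hBT]
          simp only [mem_iUnion, mem_ofPred_eq, exists_prop]
          exact ⟨i, h, heB⟩
        have hecl : e ∈ M.closure J₀ := hJ₀.subset_closure heBT
        have heJ₀ : e ∉ J₀ := fun h' => Set.disjoint_left.mp hIM.1 heI h'
        have hins : M.Indep (insert e J₀) :=
          hIM.2.subset (insert_subset (Or.inl heI) subset_union_right)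
        exact ((hJ₀.indep.insert_indep_iff_of_notMem heJ₀).mp hins).2 hecl
    _ = ((∑ i, (F i).ncard : ℕ) : ℕ∞) := by
      rw [Nat.cast_sum]
      apply Finset.sum_congr rfl
      intro i _
      exact ((hFfin i).cast_ncard_eq).symm

end Vale.Agent.H57
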