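import Mathlib

namespace Vale.Agent.H57

open Polynomial

/-- Newton-type inequalities for a real cubic all of whose complex roots are real. -/
theorem newton_cubic (A b c d : ℝ) (hA : 0 < A)
    (h : ∀ z : ℂ, (A : ℂ) * z ^ 3 + (b : ℂ) * z ^ 2 + (c : ℂ) * z + (d : ℂ) = 0 → z.im = 0) :
    2 * A * c ≤ b ^ 2 ∧ 2 * b * d ≤ c ^ 2 ∧ (b ^ 2 = 2 * A * c → d = 0) := by
  -- a real root
  have hA' : (A : ℂ) ≠ 0 := by exact_mod_cast hA.ne'
  have hdeg : (C (A : ℂ) * X ^ 3 + C (b : ℂ) * X ^ 2 + C (c : ℂ) * X + C (d : ℂ)).degree = 3 :=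
    Polynomial.degree_cubic hA'
  obtain ⟨z, hz⟩ := Complex.exists_root
    (f := C (A : ℂ) * X ^ 3 + C (b : ℂ) * X ^ 2 + C (c : ℂ) * X + C (d : ℂ))
    (by rw [hdeg]; norm_num)
  have hz' : (A : ℂ) * z ^ 3 + (b : ℂ) * z ^ 2 + (c : ℂ) * z + (d : ℂ) = 0 := by
    simpa [Polynomial.IsRoot] using hz
  have him := h z hz'
  obtain ⟨r, hr⟩ : ∃ r : ℝ, z = (r : ℂ) := ⟨z.re, Complex.ext (by simp) (by simp [him])⟩
  have hroot : A * r ^ 3 + b * r ^ 2 + c * r + d = 0 := by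
    rw [hr] at hz'
    exact_mod_cast hz'
  set b' : ℝ := b + A * r with hb'
  set c' : ℝ := c + b * r + A * r ^ 2 with hc'
  have hd : d = -(c' * r) := by
    rw [hc']; linear_combination hroot
  -- the quadratic factor has nonnegative discriminant
  have hdisc : 4 * A * c' ≤ b' ^ 2 := by
    by_contra hlt
    have hlt' : 0 < 4 * A * c' - b' ^ 2 := by linarith [not_le.mp hlt]
    set w : ℝ := Real.sqrt (4 * A * c' - b' ^ 2) with hw
    have hwpos : 0 < w := Real.sqrt_pos.mpr hlt'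
    have hwsq : w ^ 2 = 4 * A * c' - b' ^ 2 := Real.sq_sqrt hlt'.le
    set x : ℝ := -b' / (2 * A) with hx
    set y : ℝ := w / (2 * A) with hy
    set z0 : ℂ := (x : ℂ) + (y : ℂ) * Complex.I with hz0
    have hI : Complex.I ^ 2 = -1 := Complex.I_sq
    have e1 : (A : ℂ) * z0 ^ 2 + (b' : ℂ) * z0 + (c' : ℂ)
        = ((A * (x ^ 2 - y ^ 2) + b' * x + c' : ℝ) : ℂ)
          + ((2 * A * x * y + b' * y : ℝ) : ℂ) * Complex.I := by
      rw [hz0]; push_cast; linear_combination ((A : ℂ) * (y : ℂ) ^ 2) * hI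
    have hre : A * (x ^ 2 - y ^ 2) + b' * x + c' = 0 := by
      rw [hx, hy]
      field_simp
      nlinarith [hwsq]
    have himz : 2 * A * x * y + b' * y = 0 := by
      rw [hx]
      field_simp
      ring
    have hquad : (A : ℂ) * z0 ^ 2 + (b' : ℂ) * z0 + (c' : ℂ) = 0 := by
      rw [e1, hre, himz]; simp
    have hcub : (A : ℂ) * z0 ^ 3 + (b : ℂ) * z0 ^ 2 + (c : ℂ) * z0 + (d : ℂ)
        = (z0 - (r : ℂ)) * ((A : ℂ) * z0 ^ 2 + (b' : ℂ) * z0 + (c' : ℂ)) := by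
      rw [hd, hc', hb']; push_cast; ring
    have hz0root : (A : ℂ) * z0 ^ 3 + (b : ℂ) * z0 ^ 2 + (c : ℂ) * z0 + (d : ℂ) = 0 := by
      rw [hcub, hquad, mul_zero]
    have him0 := h z0 hz0root
    have : z0.im = y := by
      rw [hz0]; simp
    rw [this] at him0
    have hypos : 0 < y := by rw [hy]; positivity
    linarith
  have hbb : b = b' - A * r := by rw [hb']; ring
  have hcc : c = c' - b' * r := by rw [hc', hb']; ring
  have hq : 0 ≤ b' ^ 2 - 2 * A * c' := by nlinarith [sq_nonneg b']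
  have e1 : b ^ 2 - 2 * A * c = (b' ^ 2 - 2 * A * c') + (A * r) ^ 2 := by
    rw [hbb, hcc]; ring
  have e2 : c ^ 2 - 2 * b * d = c' ^ 2 + (b' ^ 2 - 2 * A * c') * r ^ 2 := by
    rw [hd, hbb, hcc]; ring
  refine ⟨?_, ?_, ?_⟩
  · nlinarith [sq_nonneg (A * r)]
  · have : 0 ≤ (b' ^ 2 - 2 * A * c') * r ^ 2 := mul_nonneg hq (sq_nonneg r)
    nlinarith [sq_nonneg c']
  · intro heq
    have h0 : (A * r) ^ 2 = 0 := by nlinarith [sq_nonneg (A * r)]
    have h1 : A * r = 0 := by simpa using h0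
    have hr0 : r = 0 := by
      rcases mul_eq_zero.mp h1 with h2 | h2
      · exact absurd h2 hA.ne'
      · exact h2
    rw [hd, hr0, mul_zero, neg_zero]

/-- A scalar lemma on real-rooted cubic pencils. -/
theorem cubic_pencil_const_nonpos (A B C D κ ρ : ℝ) (hA : 0 < A) (hκ : 0 < κ) (hρ : 0 ≤ ρ)
    (h : ∀ s : ℝ, ∀ z : ℂ,
      (A : ℂ) * z ^ 3 + ((B + s * κ : ℝ) : ℂ) * z ^ 2 + ((C + s * κ * ρ : ℝ) : ℂ) * z + (D : ℂ) = 0
        → z.im = 0) : D ≤ 0 := by
  have N := fun s : ℝ => newton_cubic A (B + s * κ) (C + s * κ * ρ) D hA (h s)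
  rcases hρ.eq_or_lt with hρ0 | hρpos
  · -- ρ = 0
    by_contra hD
    have hDpos : 0 < D := not_le.mp hD
    -- choose s with B + s κ = (C^2+1)/(2D)
    have h2 := (N (((C ^ 2 + 1) / (2 * D) - B) / κ)).2.1
    have e : B + ((C ^ 2 + 1) / (2 * D) - B) / κ * κ = (C ^ 2 + 1) / (2 * D) := by
      field_simp; ring
    have e' : C + ((C ^ 2 + 1) / (2 * D) - B) / κ * κ * ρ = C := by
      rw [← hρ0]; ring
    rw [e, e'] at h2
    have e3 : 2 * ((C ^ 2 + 1) / (2 * D)) * D = C ^ 2 + 1 := by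
      field_simp
    rw [e3] at h2
    linarith
  · -- ρ > 0
    have h1 := N (-B / κ)
    have eb : B + -B / κ * κ = 0 := by field_simp; ring
    have ec : C + -B / κ * κ * ρ = C - B * ρ := by field_simp; ring
    rw [eb, ec] at h1
    obtain ⟨hi, -, hiii⟩ := h1
    have hle : C - B * ρ ≤ 0 := by
      have : 2 * A * (C - B * ρ) ≤ 0 := by nlinarith
      by_contra hc
      have hc' : 0 < C - B * ρ := not_le.mp hc
      nlinarith [mul_pos hA hc']
    rcases hle.eq_or_lt with h0 | hneg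
    · have : D = 0 := hiii (by rw [h0]; ring)
      exact this.le
    · have h2 := (N (-C / (κ * ρ))).2.1
      have eb2 : B + -C / (κ * ρ) * κ = (B * ρ - C) / ρ := by field_simp; ring
      have ec2 : C + -C / (κ * ρ) * κ * ρ = 0 := by field_simp; ring
      rw [eb2, ec2] at h2
      have hbpos : 0 < (B * ρ - C) / ρ := div_pos (by linarith) hρpos
      by_contra hD
      have hDpos : 0 < D := not_le.mp hD
      have : 0 < 2 * ((B * ρ - C) / ρ) * D := by positivity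
      nlinarith

end Vale.Agent.H57
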