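import Mathlib

/-!
# Augmenting paths for pairs of (possibly infinite) matroids

Support file for problem P068.  For matroids `M`, `N` on a common ground set and a common
independent set `J` we use the exchange relation (an `N`-exchange followed by an `M`-exchange),
the layers of elements reachable from the `M`-free elements, and prove:

* `inter_of_no_aug`: if no layer contains an `N`-free element, then `J` splits as required by
  the matroid intersection property;
* `exists_aug`: a shortest augmenting sequence yields a common independent set whose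
  `M`-closure is that of `J` plus one new element;
* `intersection_of_contract_bounded`: the intersection property whenever, for some common
  independent `J₀`, the common independent sets of `M ／ J₀` and `N` have bounded size.
-/

namespace Vale.Agent.H57

open Set

variable {α : Type*}

/-- If `e ∉ J`, `J + e` is dependent and `J - y + e` is dependent for every `y ∈ D ∩ J`,
then `e` lies in the closure of `J \ D`. -/
theorem mem_closure_diff_of_forall {M : Matroid α} {J D : Set α} {e : α}
    (hJ : M.Indep J) (heE : e ∈ M.E)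
    (h0 : ¬ M.Indep (insert e J))
    (h : ∀ y ∈ D, y ∈ J → ¬ M.Indep (insert e (J \ {y}))) :
    e ∈ M.closure (J \ D) := by
  have key : M.closure (⋂₀ (insert J ((fun y => J \ {y}) '' (D ∩ J)))) =
      ⋂ X ∈ insert J ((fun y => J \ {y}) '' (D ∩ J)), M.closure X :=
    hJ.closure_sInter_eq_biInter_closure_of_forall_subset ⟨J, mem_insert _ _⟩ (by
      rintro X (rfl | ⟨y, -, rfl⟩)
      · exact Subset.rfl
      · exact sdiff_subset)
  have hset : ⋂₀ (insert J ((fun y => J \ {y}) '' (D ∩ J))) = J \ D := by
    ext z
    constructor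
    · intro hz
      have hzJ : z ∈ J := hz J (mem_insert _ _)
      refine ⟨hzJ, fun hzD => ?_⟩
      have hz' := hz (J \ {z}) (mem_insert_of_mem _ ⟨z, ⟨hzD, hzJ⟩, rfl⟩)
      exact hz'.2 rfl
    · rintro ⟨hzJ, hzD⟩ X (rfl | ⟨y, ⟨hyD, -⟩, rfl⟩)
      · exact hzJ
      · exact ⟨hzJ, fun hzy => hzD (hzy ▸ hyD)⟩
  rw [← hset, key]
  simp only [mem_iInter]
  rintro X (rfl | ⟨y, ⟨hyD, hyJ⟩, rfl⟩)
  · rw [hJ.mem_closure_iff']
    exact ⟨heE, fun hi => absurd hi h0⟩
  · rw [(hJ.subset sdiff_subset).mem_closure_iff']
    exact ⟨heE, fun hi => absurd hi (h y hyD hyJ)⟩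

/-- One exchange step relative to the common independent set `J`: from `x ∉ J` go to
`x' ∉ J` through some `y ∈ J` with `J - y + x` independent in `N` and `J - y + x'`
independent in `M`. -/
def Step (M N : Matroid α) (J : Set α) (x x' : α) : Prop :=
  ∃ y ∈ J, x ∉ J ∧ x' ∉ J ∧ N.Indep (insert x (J \ {y})) ∧ M.Indep (insert x' (J \ {y}))

/-- `Lev M N J n` is the set of elements reachable in `n` exchange steps from an element
`x ∉ J` with `J + x` independent in `M`. -/
def Lev (M N : Matroid α) (J : Set α) : ℕ → Set α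
  | 0 => {x | x ∉ J ∧ M.Indep (insert x J)}
  | (n + 1) => {z | ∃ w ∈ Lev M N J n, Step M N J w z}

theorem Lev_notMem {M N : Matroid α} {J : Set α} {n : ℕ} {z : α} (hz : z ∈ Lev M N J n) :
    z ∉ J := by
  cases n with
  | zero => exact hz.1
  | succ n =>
    obtain ⟨w, -, y, -, -, hzJ, -, -⟩ := hz
    exact hzJ

theorem Lev_mem_ground {M N : Matroid α} {J : Set α} {n : ℕ} {z : α} (hz : z ∈ Lev M N J n) :
    z ∈ M.E := by
  cases n with
  | zero => exact hz.2.subset_ground (mem_insert _ _)
  | succ n =>
    obtain ⟨w, -, y, -, -, -, -, hzM⟩ := hz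
    exact hzM.subset_ground (mem_insert _ _)

/-- If there is no augmenting sequence, the common independent set `J` splits into two parts
whose closures in `M` and in `N` cover the ground set. -/
theorem inter_of_no_aug {M N : Matroid α} (hE : M.E = N.E) {J : Set α}
    (hM : M.Indep J) (hN : N.Indep J)
    (hno : ∀ n, ∀ z ∈ Lev M N J n, ¬ N.Indep (insert z J)) :
    ∃ JM JN : Set α, JM ∪ JN = J ∧ Disjoint JM JN ∧ M.closure JM ∪ N.closure JN = M.E := by
  set U : Set α := {y | ∃ n, ∃ x ∈ Lev M N J n, N.Indep (insert x (J \ {y}))} with hU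
  refine ⟨J \ U, J ∩ U, ?_, ?_, ?_⟩
  · exact sdiff_union_inter J U
  · exact disjoint_sdiff_inter
  · apply subset_antisymm
    · apply union_subset (M.closure_subset_ground _)
      rw [hE]
      exact N.closure_subset_ground _
    · intro e heE
      by_cases heJ : e ∈ J
      · by_cases heU : e ∈ U
        · exact Or.inr (N.mem_closure_of_mem' ⟨heJ, heU⟩ (hE ▸ heE))
        · exact Or.inl (M.mem_closure_of_mem' ⟨heJ, heU⟩ heE)
      · by_cases hex : ∃ n, e ∈ Lev M N J n
        · obtain ⟨n, hn⟩ := hex
          right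
          have h1 : e ∈ N.closure (J \ {y | y ∉ U}) := by
            apply mem_closure_diff_of_forall hN (hE ▸ heE) (hno n e hn)
            intro y hyU _ hind
            exact hyU ⟨n, e, hn, hind⟩
          have h2 : J \ {y | y ∉ U} = J ∩ U := by
            ext z
            simp
          rwa [h2] at h1
        · left
          apply mem_closure_diff_of_forall hM heE
          · intro hind
            exact hex ⟨0, heJ, hind⟩
          · rintro y ⟨n, x, hx, hxN⟩ hyJ hind
            exact hex ⟨n + 1, x, hx, y, hyJ, Lev_notMem hx, heJ, hxN, hind⟩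

/-- A layered exchange sequence ending at a given element of layer `k`. -/
theorem exists_path {M N : Matroid α} {J : Set α} :
    ∀ (k : ℕ) (t : α), t ∈ Lev M N J k →
      ∃ (x y : ℕ → α), x k = t ∧ (∀ i ≤ k, x i ∈ Lev M N J i) ∧
        ∀ i < k, y i ∈ J ∧ N.Indep (insert (x i) (J \ {y i})) ∧
          M.Indep (insert (x (i + 1)) (J \ {y i})) := by
  intro k
  induction k with
  | zero =>
    intro t ht
    refine ⟨fun _ => t, fun _ => t, rfl, ?_, ?_⟩
    · intro i hi
      obtain rfl : i = 0 := Nat.le_zero.mp hi
      exact ht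
    · intro i hi
      exact absurd hi (Nat.not_lt_zero _)
  | succ k ih =>
    intro t ht
    obtain ⟨w, hw, y₀, hy₀J, hwJ, htJ, hwN, htM⟩ := ht
    obtain ⟨x, y, hxk, hx, hxy⟩ := ih w hw
    refine ⟨Function.update x (k + 1) t, Function.update y k y₀, by simp, ?_, ?_⟩
    · intro i hi
      by_cases hik : i = k + 1
      · subst hik
        simp only [Function.update_self]
        exact ⟨w, hw, y₀, hy₀J, hwJ, htJ, hwN, htM⟩
      · rw [Function.update_of_ne hik]
        exact hx i (by omega)
    · intro i hi
      by_cases hik : i = k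
      · subst hik
        simp only [Function.update_self]
        rw [Function.update_of_ne (by omega : i ≠ i + 1), hxk]
        exact ⟨hy₀J, hwN, htM⟩
      · have hi' : i < k := by omega
        rw [Function.update_of_ne hik, Function.update_of_ne (by omega : i ≠ k + 1),
          Function.update_of_ne (by omega : i + 1 ≠ k + 1)]
        exact hxy i hi'

theorem set_step {J O Ev : Set α} {x' y' : α} (hy : y' ∉ Ev) :
    (J \ insert y' O) ∪ insert x' Ev = insert x' (((J \ O) ∪ Ev) \ {y'}) := by
  ext z
  simp only [mem_union, mem_sdiff, mem_insert_iff, mem_singleton_iff]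
  constructor
  · rintro (⟨hzJ, hz⟩ | (rfl | hz))
    · rw [not_or] at hz
      exact Or.inr ⟨Or.inl ⟨hzJ, hz.2⟩, hz.1⟩
    · exact Or.inl rfl
    · exact Or.inr ⟨Or.inr hz, fun h => hy (h ▸ hz)⟩
  · rintro (rfl | ⟨(⟨hzJ, hzO⟩ | hz), hzy⟩)
    · exact Or.inr (Or.inl rfl)
    · exact Or.inl ⟨hzJ, fun h => h.elim hzy hzO⟩
    · exact Or.inr (Or.inr hz)

/-- One exchange along the sequence: if `x'` is in the closure of `A ⊆ S`, `S` is independent
and `A - y' + x'` is independent, then `S - y' + x'` is independent. -/
theorem exchange_indep {M : Matroid α} {S A : Set α} {x' y' : α} (hS : M.Indep S)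
    (hAS : A ⊆ S) (hxA : x' ∈ M.closure A) (hxE : x' ∈ M.E) (hxnA : x' ∉ A)
    (hind : M.Indep (insert x' (A \ {y'}))) :
    x' ∉ M.closure (S \ {y'}) ∧ M.Indep (insert x' (S \ {y'})) := by
  have h_ii : x' ∉ M.closure (S \ {y'}) := by
    intro hcl
    have hun : M.Indep (A ∪ (S \ {y'})) := hS.subset (union_subset hAS sdiff_subset)
    have h3 : x' ∈ M.closure (A ∩ (S \ {y'})) := by
      rw [Matroid.Indep.closure_inter_eq_inter_closure hun]
      exact ⟨hxA, hcl⟩
    have h4 : x' ∈ M.closure (A \ {y'}) :=
      M.closure_subset_closure (by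
        rintro z ⟨hzA, -, hzy⟩
        exact ⟨hzA, hzy⟩) h3
    have h5 := (((hS.subset hAS).subset sdiff_subset).insert_indep_iff_of_notMem
      (fun h => hxnA h.1)).mp hind
    exact h5.2 h4
  exact ⟨h_ii, ((hS.subset sdiff_subset).insert_indep_iff).mpr (Or.inl ⟨hxE, h_ii⟩)⟩

/-- The exchange of `exchange_indep` does not change the closure. -/
theorem exchange_closure {M : Matroid α} {S A : Set α} {x' y' : α}
    (hAS : A ⊆ S) (hxA : x' ∈ M.closure A)
    (h_ii : x' ∉ M.closure (S \ {y'})) :
    M.closure (insert x' (S \ {y'})) = M.closure S := by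
  have hxS : x' ∈ M.closure S := M.closure_subset_closure hAS hxA
  by_cases hyS : y' ∈ S
  · have h6 : insert y' (S \ {y'}) = S := by
      rw [insert_sdiff_singleton, insert_eq_of_mem hyS]
    have h7 : x' ∈ M.closure (insert y' (S \ {y'})) \ M.closure (S \ {y'}) := by
      refine ⟨?_, h_ii⟩
      rw [h6]
      exact hxS
    rw [Matroid.closure_insert_congr h7, h6]
  · exfalso
    apply h_ii
    rw [sdiff_singleton_eq_self hyS]
    exact hxS

/-- Augmentation along a shortest exchange sequence: if layer `k` contains an element `t` with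
`J + t` independent in `N`, and no earlier layer does, then there is a common independent set
`J'` whose `M`-closure equals that of `J + x₀` for some `x₀ ∉ J` with `J + x₀` independent
in `M`. -/
theorem exists_aug {M N : Matroid α} {J : Set α} (hM : M.Indep J) (hN : N.Indep J)
    (k : ℕ) (t : α) (ht : t ∈ Lev M N J k) (htN : N.Indep (insert t J))
    (hmin : ∀ m < k, ∀ z ∈ Lev M N J m, ¬ N.Indep (insert z J)) :
    ∃ (J' : Set α) (x₀ : α), M.Indep J' ∧ N.Indep J' ∧ x₀ ∉ J ∧ M.Indep (insert x₀ J) ∧
      M.closure J' = M.closure (insert x₀ J) := by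
  obtain ⟨x, y, hxk, hx, hxy⟩ := exists_path k t ht
  subst hxk
  have hxJ : ∀ i ≤ k, x i ∉ J := fun i hi => Lev_notMem (hx i hi)
  have hshift : ∀ d j m, j + d ≤ k → x j ∈ Lev M N J m → x (j + d) ∈ Lev M N J (m + d) := by
    intro d
    induction d with
    | zero =>
      intro j m _ h
      simpa using h
    | succ d ih =>
      intro j m hjd h
      have h1 := ih j m (by omega) h
      have h2 := hxy (j + d) (by omega)
      exact ⟨x (j + d), h1, y (j + d), h2.1, hxJ _ (by omega), hxJ _ (by omega), h2.2.1, h2.2.2⟩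
  have hexact : ∀ j ≤ k, ∀ m, x j ∈ Lev M N J m → j ≤ m := by
    intro j hj m h
    by_contra hlt
    have h1 := hshift (k - j) j m (by omega) h
    rw [show j + (k - j) = k by omega] at h1
    exact hmin (m + (k - j)) (by omega) _ h1 htN
  have hnoN : ∀ i < k, ¬ N.Indep (insert (x i) J) := fun i hi => hmin i hi _ (hx i hi.le)
  have hnoM : ∀ i, 0 < i → i ≤ k → ¬ M.Indep (insert (x i) J) := by
    intro i hi0 hik hind
    have h1 := hexact i hik 0 ⟨hxJ i hik, hind⟩
    omega
  have hshortM : ∀ i j, i < j → j < k → ¬ M.Indep (insert (x (j + 1)) (J \ {y i})) := by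
    intro i j hij hjk hind
    have h2 := hxy i (by omega)
    have h3 : x (j + 1) ∈ Lev M N J (i + 1) :=
      ⟨x i, hx i (by omega), y i, h2.1, hxJ _ (by omega), hxJ _ (by omega), h2.2.1, hind⟩
    have h4 := hexact (j + 1) (by omega) (i + 1) h3
    omega
  have hshortN : ∀ i l, i < l → l < k → ¬ N.Indep (insert (x i) (J \ {y l})) := by
    intro i l hil hlk hind
    have h2 := hxy l hlk
    have h3 : x (l + 1) ∈ Lev M N J (i + 1) :=
      ⟨x i, hx i (by omega), y l, h2.1, hxJ _ (by omega), hxJ _ (by omega), hind, h2.2.2⟩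
    have h4 := hexact (l + 1) (by omega) (i + 1) h3
    omega
  -- the `M`-side: exchange forwards along the sequence
  have hS : ∀ j ≤ k, M.Indep ((J \ (y '' Iio j)) ∪ x '' Iic j) ∧
      M.closure ((J \ (y '' Iio j)) ∪ x '' Iic j) = M.closure (insert (x 0) J) := by
    intro j
    induction j with
    | zero =>
      intro _
      have h0 : (J \ (y '' Iio 0)) ∪ x '' Iic 0 = insert (x 0) J := by
        have e1 : Iio (0 : ℕ) = ∅ := by
          ext i
          simp
        have e2 : Iic (0 : ℕ) = {0} := by
          ext i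
          simp
        rw [e1, e2, image_empty, sdiff_empty, image_singleton, union_singleton]
      rw [h0]
      exact ⟨(hx 0 (Nat.zero_le _)).2, rfl⟩
    | succ j ih =>
      intro hj
      obtain ⟨hSi, hScl⟩ := ih (by omega)
      have h2 := hxy j (by omega)
      have hxM := h2.2.2
      have hxE : x (j + 1) ∈ M.E := hxM.subset_ground (mem_insert _ _)
      have hyEv : y j ∉ x '' Iic j := by
        rintro ⟨i, hi, hiy⟩
        exact hxJ i (le_trans hi (by omega)) (hiy ▸ h2.1)
      have hO : y '' Iio (j + 1) = insert (y j) (y '' Iio j) := by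
        rw [← image_insert_eq]
        congr 1
        ext i
        simp only [mem_Iio, mem_insert_iff]
        omega
      have hEv : x '' Iic (j + 1) = insert (x (j + 1)) (x '' Iic j) := by
        rw [← image_insert_eq]
        congr 1
        ext i
        simp only [mem_Iic, mem_insert_iff]
        omega
      have h_i : x (j + 1) ∈ M.closure (J \ (y '' Iio j)) := by
        apply mem_closure_diff_of_forall hM hxE (hnoM (j + 1) (by omega) hj)
        rintro z ⟨i, hi, rfl⟩ _
        exact hshortM i j hi (by omega)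
      have hex := exchange_indep (y' := y j) hSi subset_union_left h_i hxE
        (fun h => hxJ (j + 1) hj h.1)
        (hxM.subset (insert_subset_insert (sdiff_subset_sdiff_left sdiff_subset)))
      rw [hO, hEv, set_step hyEv]
      exact ⟨hex.2, (exchange_closure subset_union_left h_i hex.1).trans hScl⟩
  -- the `N`-side: exchange backwards along the sequence
  have hT : ∀ d, d ≤ k → N.Indep ((J \ (y '' Ico (k - d) k)) ∪ x '' Icc (k - d) k) := by
    intro d
    induction d with
    | zero =>
      intro _
      have h0 : (J \ (y '' Ico (k - 0) k)) ∪ x '' Icc (k - 0) k = insert (x k) J := by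
        ext z
        simp
      rw [h0]
      exact htN
    | succ d ih =>
      intro hd
      have hTi := ih (by omega)
      obtain ⟨i, hi⟩ : ∃ i, i = k - (d + 1) := ⟨_, rfl⟩
      have hi1 : k - d = i + 1 := by omega
      rw [← hi]
      rw [hi1] at hTi
      have hik : i < k := by omega
      have h2 := hxy i hik
      have hxN := h2.2.1
      have hxE : x i ∈ N.E := hxN.subset_ground (mem_insert _ _)
      have hyEv : y i ∉ x '' Icc (i + 1) k := by
        rintro ⟨l, hl, hly⟩
        exact hxJ l hl.2 (hly ▸ h2.1)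
      have hO : y '' Ico i k = insert (y i) (y '' Ico (i + 1) k) := by
        rw [← image_insert_eq]
        congr 1
        ext l
        simp only [mem_Ico, mem_insert_iff]
        omega
      have hEv : x '' Icc i k = insert (x i) (x '' Icc (i + 1) k) := by
        rw [← image_insert_eq]
        congr 1
        ext l
        simp only [mem_Icc, mem_insert_iff]
        omega
      have h_i : x i ∈ N.closure (J \ (y '' Ico (i + 1) k)) := by
        apply mem_closure_diff_of_forall hN hxE (hnoN i hik)
        rintro z ⟨l, hl, rfl⟩ _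
        exact hshortN i l hl.1 hl.2
      have hex := exchange_indep (y' := y i) hTi subset_union_left h_i hxE
        (fun h => hxJ i hik.le h.1)
        (hxN.subset (insert_subset_insert (sdiff_subset_sdiff_left sdiff_subset)))
      rw [hO, hEv, set_step hyEv]
      exact hex.2
  have e1 : Ico 0 k = Iio k := by
    ext i
    simp
  have e2 : Icc 0 k = Iic k := by
    ext i
    simp
  have hfin : (J \ (y '' Ico (k - k) k)) ∪ x '' Icc (k - k) k =
      (J \ (y '' Iio k)) ∪ x '' Iic k := by
    rw [Nat.sub_self, e1, e2]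
  refine ⟨(J \ (y '' Iio k)) ∪ x '' Iic k, x 0, (hS k le_rfl).1, ?_, hxJ 0 (Nat.zero_le _),
    (hx 0 (Nat.zero_le _)).2, (hS k le_rfl).2⟩
  rw [← hfin]
  exact hT k le_rfl

/-- **Criterion.** Let `M`, `N` be matroids on a common ground set and let `J₀` be a common
independent set such that the common independent sets of the contraction `M ／ J₀` and of `N`
have at most `K` elements.  Then the pair `(M, N)` has the matroid intersection property. -/
theorem intersection_of_contract_bounded (M N : Matroid α) (hE : M.E = N.E) (J₀ : Set α) (K : ℕ)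
    (hM : M.Indep J₀) (hN : N.Indep J₀)
    (hK : ∀ I : Set α, (M.contract J₀).Indep I → N.Indep I → I.encard ≤ K) :
    ∃ J JM JN : Set α, M.Indep J ∧ N.Indep J ∧ JM ∪ JN = J ∧ Disjoint JM JN ∧
      M.closure JM ∪ N.closure JN = M.E := by
  have hbound : ∀ J, N.Indep J → (M.contract J₀).eRk J ≤ K := fun J hJ =>
    Matroid.eRk_le_iff.mpr fun I hIJ hI => hK I hI (hJ.subset hIJ)
  have step : ∀ J, M.Indep J → N.Indep J → J₀ ⊆ M.closure J →
      (∃ JM JN : Set α, JM ∪ JN = J ∧ Disjoint JM JN ∧ M.closure JM ∪ N.closure JN = M.E) ∨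
      ∃ J', M.Indep J' ∧ N.Indep J' ∧ J₀ ⊆ M.closure J' ∧
        (M.contract J₀).eRk J' = (M.contract J₀).eRk J + 1 := by
    intro J hJM hJN hJ₀
    by_cases hno : ∀ n, ∀ z ∈ Lev M N J n, ¬ N.Indep (insert z J)
    · exact Or.inl (inter_of_no_aug hE hJM hJN hno)
    · right
      have hex : ∃ n, ∃ z ∈ Lev M N J n, N.Indep (insert z J) := by
        by_contra hcon
        apply hno
        intro n z hz hzN
        exact hcon ⟨n, z, hz, hzN⟩
      classical
      obtain ⟨t, ht, htN⟩ := Nat.find_spec hex
      have hmin : ∀ m < Nat.find hex, ∀ z ∈ Lev M N J m, ¬ N.Indep (insert z J) :=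
        fun m hm z hz hzN => Nat.find_min hex hm ⟨z, hz, hzN⟩
      obtain ⟨J', x₀, hJ'M, hJ'N, hx₀J, hx₀M, hcl⟩ :=
        exists_aug hJM hJN (Nat.find hex) t ht htN hmin
      refine ⟨J', hJ'M, hJ'N, ?_, ?_⟩
      · rw [hcl]
        exact hJ₀.trans (M.closure_subset_closure (subset_insert _ _))
      · have hx₀cl : x₀ ∉ M.closure J := ((hJM.insert_indep_iff_of_notMem hx₀J).mp hx₀M).2
        have hx₀E : x₀ ∈ M.E := hx₀M.subset_ground (mem_insert _ _)
        have h1 : (M.contract J₀).closure J' = (M.contract J₀).closure (insert x₀ J) := by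
          rw [Matroid.contract_closure_eq, Matroid.contract_closure_eq]
          congr 1
          exact M.closure_union_congr_left hcl
        have h2 : (M.contract J₀).eRk J' = (M.contract J₀).eRk (insert x₀ J) := by
          rw [← Matroid.eRk_closure_eq, h1, Matroid.eRk_closure_eq]
        rw [h2]
        apply Matroid.eRk_insert_eq_add_one
        rw [Matroid.contract_closure_eq, Matroid.contract_ground]
        have h3 : M.closure (J ∪ J₀) ⊆ M.closure J := by
          apply M.closure_subset_closure_of_subset_closure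
          exact union_subset (M.subset_closure J hJM.subset_ground) hJ₀
        exact ⟨⟨hx₀E, fun h => hx₀cl (hJ₀ h)⟩, fun h => hx₀cl (h3 h.1)⟩
  have main : ∀ d : ℕ, ∀ J, M.Indep J → N.Indep J → J₀ ⊆ M.closure J →
      (K : ℕ∞) ≤ (M.contract J₀).eRk J + d →
      ∃ J JM JN : Set α, M.Indep J ∧ N.Indep J ∧ JM ∪ JN = J ∧ Disjoint JM JN ∧
        M.closure JM ∪ N.closure JN = M.E := by
    intro d
    induction d with
    | zero =>
      intro J hJM hJN hJ₀ hle
      rcases step J hJM hJN hJ₀ with ⟨JM, JN, h⟩ | ⟨J', hJ'M, hJ'N, hJ'₀, hrk⟩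
      · exact ⟨J, JM, JN, hJM, hJN, h⟩
      · exfalso
        have h1 := hbound J' hJ'N
        have h2 := hbound J hJN
        rw [hrk] at h1
        rw [Nat.cast_zero, add_zero] at hle
        have h3 : (M.contract J₀).eRk J = K := le_antisymm h2 hle
        rw [h3] at h1
        exact lt_irrefl _ ((ENat.add_one_le_iff (ENat.natCast_ne_top K)).mp h1)
    | succ d ih =>
      intro J hJM hJN hJ₀ hle
      rcases step J hJM hJN hJ₀ with ⟨JM, JN, h⟩ | ⟨J', hJ'M, hJ'N, hJ'₀, hrk⟩
      · exact ⟨J, JM, JN, hJM, hJN, h⟩
      · apply ih J' hJ'M hJ'N hJ'₀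
        rw [hrk]
        calc (K : ℕ∞) ≤ (M.contract J₀).eRk J + ((d + 1 : ℕ) : ℕ∞) := hle
          _ = (M.contract J₀).eRk J + 1 + d := by
            push_cast
            ring
  exact main K J₀ hM hN (M.subset_closure J₀ hM.subset_ground) le_add_self

end Vale.Agent.H57
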