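import Mathlib

namespace Vale.Agent.H57

open Polynomial

/-- Degree bound for the summands of a sum of squares of real polynomials. -/
theorem natDegree_le_of_sum_sq {ι : Type} [Fintype ι] (f : ι → Polynomial ℝ) (g : Polynomial ℝ)
    (h : g = ∑ i, f i ^ 2) (i : ι) : 2 * (f i).natDegree ≤ g.natDegree := by
  classical
  obtain ⟨j0, -, hj0⟩ := Finset.exists_max_image Finset.univ (fun j => (f j).natDegree) ⟨i, Finset.mem_univ i⟩
  set d := (f j0).natDegree with hd
  have hle : ∀ j, (f j).natDegree ≤ d := fun j => hj0 j (Finset.mem_univ j)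
  rcases Nat.eq_zero_or_pos d with hd0 | hdpos
  · have : (f i).natDegree = 0 := Nat.le_zero.mp (hd0 ▸ hle i)
    simp [this]
  · have hcoeff : g.coeff (2 * d) = ∑ j, ((f j).coeff d) ^ 2 := by
      rw [h, Polynomial.finsetSum_coeff]
      refine Finset.sum_congr rfl (fun j _ => ?_)
      exact Polynomial.coeff_pow_of_natDegree_le (hle j)
    have hj0ne : f j0 ≠ 0 := by
      intro h0
      rw [h0, Polynomial.natDegree_zero] at hd
      omega
    have hlead : (f j0).coeff d ≠ 0 := by
      rw [hd]
      exact Polynomial.leadingCoeff_ne_zero.mpr hj0ne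
    have hpos : 0 < ∑ j, ((f j).coeff d) ^ 2 := by
      have h1 : 0 < ((f j0).coeff d) ^ 2 := by positivity
      calc 0 < ((f j0).coeff d) ^ 2 := h1
        _ ≤ ∑ j, ((f j).coeff d) ^ 2 :=
          Finset.single_le_sum (f := fun j => ((f j).coeff d) ^ 2)
            (fun j _ => sq_nonneg _) (Finset.mem_univ j0)
    have hne : g.coeff (2 * d) ≠ 0 := by
      rw [hcoeff]; exact ne_of_gt hpos
    have h2 : 2 * d ≤ g.natDegree := Polynomial.le_natDegree_of_ne_zero hne
    calc 2 * (f i).natDegree ≤ 2 * d := Nat.mul_le_mul_left 2 (hle i)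
      _ ≤ g.natDegree := h2

end Vale.Agent.H57
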